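import Vale.Agent.Lib.P072.Main

/-!
# P072: permanence of weakly reversible mass-action systems whose linkage classes lie on lines with
pairwise parallel or disjointly supported directions

`R` is the finite set of reactions `y → y'` on `d` species and `k` gives the rate constants. The
map `blk` attaches to every complex the index of a direction `v b`; it is constant along
reactions, hence on linkage classes, and every reaction vector is a multiple of the direction of
its class. Different directions have disjoint supports. Species outside the support of the
direction of a class may occur in its complexes as catalysts, so the classes are coupled. There is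
no restriction on the number of species, on the number of linkage classes or on the deficiency.
-/

open Vale.Agent.Lib.P072

namespace Vale.Agent.Results.P072.LineClasses

theorem result {d m : ℕ} (R : Finset (Rx d)) (hne : ∀ r ∈ R, r.1 ≠ r.2) (k : Rx d → ℝ)
    (hk : ∀ r ∈ R, 0 < k r) (hwr : WeaklyReversible R)
    (v : Fin m → Fin d → ℝ) (blk : Cx d → Fin m)
    (hdisj : ∀ a b, a ≠ b → ∀ i, v a i = 0 ∨ v b i = 0)
    (hline : ∀ r ∈ R, blk r.1 = blk r.2 ∧ ∃ l : ℝ, rvec r = l • v (blk r.1))
    (c : Fin d → ℝ) (hc : ∀ i, 0 < c i) : Permanent R k c :=
  permanent_of_lines R hne k hk hwr v blk hdisj hline c hc

end Vale.Agent.Results.P072.LineClasses
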